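import Vale.Agent.P109N.Seq
import Vale.Agent.P109N.Mu
import Vale.Agent.P109N.Erg
import Vale.Agent.P109N.Tr
import Vale.Agent.P109N.MD
import Vale.Agent.P109N.ME

namespace Vale.Agent.Results.P109.NoModel

open MeasureTheory Vale.Agent.P109N

/-- An ergodic nonatomic shift system on two symbols with no smooth positive-volume model. -/
theorem result : ∃ μ : Measure (ℤ → Bool), IsProbabilityMeasure μ ∧ (∀ ω, μ {ω} = 0) ∧
    Ergodic shift μ ∧
    ∀ (d : ℕ) (H M : Type) [TopologicalSpace H] (I : ModelWithCorners ℝ (Fin d → ℝ) H),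
      (Set.range I = Set.univ ∨ ∃ i : Fin d, Set.range I = {v | 0 ≤ v i}) →
      ∀ [TopologicalSpace M] [ChartedSpace H M] [IsManifold I (⊤ : ℕ∞) M] [T2Space M]
        [CompactSpace M] [SecondCountableTopology M] [MeasurableSpace M] [BorelSpace M]
        (ν : Measure M) [IsProbabilityMeasure ν], SmoothVol I ν →
        ∀ S : Diffeomorph I I M M (⊤ : ℕ∞), MeasurePreserving S ν ν →
          ¬Vale.Agent.P109.IsoMod μ shift ν S := by
  obtain ⟨a, k, ψ, hc, hG, hK⟩ := exists_chain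
  obtain ⟨μ, hp, hm, hj⟩ := exists_mu hc
  have h0 := chain_noAtoms hG fun j => (hj j).2
  refine ⟨μ, hp, h0, chain_ergodic hc hm fun j => (hj j).1, ?_⟩
  intro d H M _ I hI _ _ _ _ _ _ _ _ ν _ hν S hS hiso
  rcases Nat.eq_zero_or_pos d with rfl | hd
  · have : Finite M := dim_zero (H := H) (M := M) I
    obtain ⟨X₀, Y₀, F, G, -, -, hX, -, -, -, -, -, hb, -⟩ := hiso
    have hfin : X₀.Finite := Set.Finite.of_finite_image (Set.toFinite _) hb.injOn
    have h1 : μ X₀ = 0 := by
      rw [← Set.biUnion_of_singleton X₀]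
      exact (measure_biUnion_null_iff hfin.countable).2 fun ω _ => h0 ω
    have h2 := measure_union_null h1 hX
    simp at h2
  · obtain ⟨P, hP, hT⟩ := joint_tr hS.measurable hiso
    obtain ⟨n, R, c, s, b, q, hA⟩ := exists_atl hd hI hν S hS hP
    obtain ⟨R', χ, φ, A, Q, hF⟩ := flat_of_atl hd hA
    obtain ⟨j, hj'⟩ := hK d R'
    obtain ⟨m, hm'⟩ := (hj j).2
    obtain ⟨m', hm''⟩ := hT _ (hG j).1.1 m hm'
    exact hj' M ν S P χ φ A Q hF m' hm''

end Vale.Agent.Results.P109.NoModel
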