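import Vale.Agent.P109N.EucA
import Vale.Agent.P109N.Ent

namespace Vale.Agent.Results.P109.NoModelE

open MeasureTheory Vale.Agent.P109N Vale.Agent.P109E

/-- An ergodic invertible finite-entropy system on a standard nonatomic probability space that is
not isomorphic modulo null sets to any smooth positive-volume system. -/
theorem result : ∃ (X : Type) (_ : MeasurableSpace X) (_ : StandardBorelSpace X) (μ : Measure X)
    (T : X ≃ᵐ X), IsProbabilityMeasure μ ∧ (∀ x, μ {x} = 0) ∧ Ergodic T μ ∧ ksEnt μ T < ⊤ ∧
    (∀ d : ℕ, NoModel μ T (modelWithCornersSelf ℝ (EuclideanSpace ℝ (Fin d)))) ∧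
    ∀ (d : ℕ) [NeZero d], NoModel μ T (modelWithCornersEuclideanHalfSpace d) := by
  obtain ⟨μ, hp, h0, he, h⟩ := exists_noModel
  let T : (ℤ → Bool) ≃ᵐ (ℤ → Bool) :=
    { toFun := shift
      invFun := fun ω n => ω (n - 1)
      left_inv := fun ω => funext fun n => by simp [shift]
      right_inv := fun ω => funext fun n => by simp [shift]
      measurable_toFun := he.measurable
      measurable_invFun := measurable_pi_lambda _ fun n => measurable_pi_apply _ }
  exact ⟨ℤ → Bool, inferInstance, inferInstance, μ, T, hp, h0, he,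
    ksEnt_lt_top μ he.toMeasurePreserving,
    fun d => h d _ _ (Or.inl (modelWithCornersSelf ℝ _).range_eq_univ),
    fun d _ => h d _ _ (Or.inr ⟨0, range_modelWithCornersEuclideanHalfSpace d⟩)⟩

end Vale.Agent.Results.P109.NoModelE
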