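import Vale.Agent.Results.P109.NoModel
import Vale.Agent.P109N.Ent
import Vale.Agent.P109N.Euc

namespace Vale.Agent.Results.P109.NoModelEnt

open MeasureTheory Vale.Agent.P109N

/-- An ergodic invertible finite-entropy system on a standard nonatomic probability space with no
smooth positive-volume model. -/
theorem result : ∃ (X : Type) (_ : MeasurableSpace X) (_ : StandardBorelSpace X) (μ : Measure X)
    (T : X ≃ᵐ X), IsProbabilityMeasure μ ∧ (∀ x, μ {x} = 0) ∧ Ergodic T μ ∧ ksEnt μ T < ⊤ ∧
    ∀ (d : ℕ) (H M : Type) [TopologicalSpace H]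
      (I : ModelWithCorners ℝ (EuclideanSpace ℝ (Fin d)) H),
      (Set.range I = Set.univ ∨ ∃ i : Fin d, Set.range I = {v | 0 ≤ v i}) →
      ∀ [TopologicalSpace M] [ChartedSpace H M] [IsManifold I (⊤ : ℕ∞) M] [T2Space M]
        [CompactSpace M] [MeasurableSpace M] [BorelSpace M]
        (ν : Measure M) [IsProbabilityMeasure ν], SmoothVolE I ν →
        ∀ S : Diffeomorph I I M M (⊤ : ℕ∞), MeasurePreserving S ν ν →
          ¬Vale.Agent.P109.IsoMod μ T ν S := by
  obtain ⟨μ, hp, h0, he, h⟩ := Vale.Agent.Results.P109.NoModel.result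
  let T : (ℤ → Bool) ≃ᵐ (ℤ → Bool) :=
    { toFun := shift
      invFun := fun ω n => ω (n - 1)
      left_inv := fun ω => funext fun n => by simp [shift]
      right_inv := fun ω => funext fun n => by simp [shift]
      measurable_toFun := he.measurable
      measurable_invFun := measurable_pi_lambda _ fun n => measurable_pi_apply _ }
  refine ⟨ℤ → Bool, inferInstance, inferInstance, μ, T, hp, h0, he,
    ksEnt_lt_top μ he.toMeasurePreserving, ?_⟩
  intro d H M _ I hI _ _ _ _ _ _ _ ν _ hν S hS
  have : SecondCountableTopology H := I.secondCountableTopology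
  have : SecondCountableTopology M := ChartedSpace.secondCountable_of_sigmaCompact H M
  let e := EuclideanSpace.equiv (Fin d) ℝ
  let S' : Diffeomorph (I.transContinuousLinearEquiv e) (I.transContinuousLinearEquiv e) M M
      (⊤ : ℕ∞) :=
    { toEquiv := S.toEquiv
      contMDiff_toFun := by simpa using S.contMDiff
      contMDiff_invFun := by simpa using S.symm.contMDiff }
  exact h d H M (I.transContinuousLinearEquiv e) (range_trans hI) ν hν.trans S' hS

end Vale.Agent.Results.P109.NoModelEnt
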