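import Vale.Agent.P109.Seq
import Vale.Agent.P109.Lim
import Vale.Agent.P109.Iso
import Vale.Agent.P109.Uniq
import Vale.Agent.P109.Phi
import Vale.Agent.P109.Equi

namespace Vale.Agent.Results.P109.Odometer

open MeasureTheory Vale.Agent.P109

/-- Every odometer is measurably isomorphic to a smooth area preserving diffeomorphism of the
two-dimensional torus. -/
theorem result (q : ℕ → ℕ) (h0 : ∀ n, 0 < q n) (hd : ∀ n, q n ∣ q (n + 1))
    (hu : ∀ B, ∃ n, B < q n) :
    ∃ S : T2 ≃ T2, SmoothT S ∧ SmoothT S.symm ∧ MeasurePreserving S volume volume ∧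
      (∃ μ, OdoMeasure q μ) ∧
      ∀ μ, OdoMeasure q μ → IsoMod μ (fun x => x + 1) volume S := by
  have : ∀ i, NeZero (q i) := fun i => ⟨(h0 i).ne'⟩
  have : ∀ i, Countable (ZMod (q i)) := fun i => inferInstance
  have : ∀ i, StandardBorelSpace (ZMod (q i)) := fun i => inferInstance
  have : StandardBorelSpace (∀ i, ZMod (q i)) := inferInstance
  have : IsProbabilityMeasure (volume : Measure UnitAddCircle) := ⟨UnitAddCircle.measure_univ⟩
  obtain ⟨n, hn, K, K', G, h⟩ := exists_seq h0 hd hu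
  obtain ⟨F, F', hF, ht⟩ := lim_dd
    (f := fun j => cj (K j) (K' j) (1 / (q (n j) : ℝ), 0))
    (g := fun j => cj (K j) (K' j) (-(1 / (q (n j) : ℝ), 0)))
    (fun j => dd_cj (h.dd j) _) (fun j => per_cj (h.dd j) _) (fun j => per_cj (h.dd j) _)
    (fun j => by rw [cj_succ h j]; exact h.cl j) (fun j => by rw [cj_succ' h j]; exact h.cl' j)
  obtain ⟨Φ, hm, ho, hl, A, hA, hi⟩ := exists_phi hd hn h
  have hc := cont_desc hF.sm.continuous hF.eqv
  have hc' := cont_desc hF.sm'.continuous hF.eqv'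
  have he := phi_equi hd hn h hc hF.mp ht hm hl
  let S : T2 ≃ᵐ T2 := ⟨⟨desc F, desc F', hF.desc_li, hF.desc_ri⟩, hc.measurable, hc'.measurable⟩
  have hadd : Measurable fun x : ∀ i, ZMod (q i) => x + 1 :=
    measurable_pi_lambda _ fun i =>
      (measurable_from_top (f := fun a : ZMod (q i) => a + 1)).comp (measurable_pi_apply i)
  have hO : MeasurableSet (Odo q) := by
    have : Odo q = ⋂ i, {x | (ZMod.cast (x (i + 1)) : ZMod (q i)) = x i} := by
      ext x; simp [Odo]
    rw [this]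
    refine MeasurableSet.iInter fun i => measurableSet_eq_fun ?_ (measurable_pi_apply i)
    exact (measurable_from_top (f := fun a : ZMod (q (i + 1)) =>
      (ZMod.cast a : ZMod (q i)))).comp (measurable_pi_apply (i + 1))
  have hμ : OdoMeasure q (volume.map Φ) := by
    refine ⟨Measure.isProbabilityMeasure_map hm.aemeasurable, ?_, hadd, ?_⟩
    · rw [Measure.map_apply hm hO.compl]
      exact ho
    · rw [Measure.map_map hadd hm]
      have h1 : ((fun x => x + 1) ∘ Φ) =ᵐ[volume] Φ ∘ desc F := he.mono fun p hp => hp.symm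
      rw [Measure.map_congr h1, ← Measure.map_map hm hc.measurable, hF.mp.map_eq]
  refine ⟨S.toEquiv, ⟨F, hF.sm, desc_pr hF.eqv⟩, ⟨F', hF.sm', desc_pr hF.eqv'⟩, hF.mp,
    ⟨_, hμ⟩, fun μ hμ' => ?_⟩
  rw [odo_uniq h0 hd hμ' hμ]
  exact iso_of (add_left_injective 1) S hF.mp ⟨hm, rfl⟩ he hA hi

end Vale.Agent.Results.P109.Odometer
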